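import Vale.Agent.P034.Orbit

/-!
# Talagrand's conjecture for families generated by few orbits (P034)

For an increasing family `F ⊆ 2^X` whose minimal members form at most `M` orbits under a group
acting on `X`, the fractional expectation threshold is at most `K * M` times the integral
one, with a universal constant `K`.
-/

namespace Vale.Agent.Results.P034.OrbitFamilies

open Finset

/-- `𝒢` covers `F`: every member of `F` contains a member of `𝒢`. -/
def Covers {X : Type} (𝒢 : Finset (Finset X)) (F : Set (Finset X)) : Prop :=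
  ∀ H ∈ F, ∃ S ∈ 𝒢, S ⊆ H

/-- `g` is a fractional cover of `F`. -/
def FracCovers {X : Type} (g : Finset X → ℝ) (F : Set (Finset X)) : Prop :=
  (∀ S, 0 ≤ g S ∧ g S ≤ 1) ∧ ∀ H ∈ F, 1 ≤ ∑ S ∈ H.powerset, g S

/-- the set of all `p` in `[0,1]` such that `F` is `p`-small -/
def smallSet {X : Type} (F : Set (Finset X)) : Set ℝ :=
  {p : ℝ | 0 ≤ p ∧ p ≤ 1 ∧ ∃ 𝒢 : Finset (Finset X), Covers 𝒢 F ∧ ∑ S ∈ 𝒢, p ^ S.card ≤ 1 / 2}

/-- the set of all `p` in `[0,1]` at which `F` has a fractional cover of cost at most `1/2` -/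
def fracSet {X : Type} [Fintype X] (F : Set (Finset X)) : Set ℝ :=
  {p : ℝ | 0 ≤ p ∧ p ≤ 1 ∧
    ∃ g : Finset X → ℝ, FracCovers g F ∧ ∑ S : Finset X, g S * p ^ S.card ≤ 1 / 2}

/-- the expectation threshold `q(F)` -/
noncomputable def q {X : Type} (F : Set (Finset X)) : ℝ := sSup (smallSet F)

/-- the fractional expectation threshold `q_f(F)` -/
noncomputable def qf {X : Type} [Fintype X] (F : Set (Finset X)) : ℝ := sSup (fracSet F)

/-- the increasing family generated by all translates `g H`, `g ∈ G`, `H ∈ 𝓗` -/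
def orbitFamily (G : Type) {X : Type} [Group G] [MulAction G X] [DecidableEq X]
    (𝓗 : Finset (Finset X)) : Set (Finset X) :=
  {A : Finset X | ∃ H ∈ 𝓗, ∃ g : G, H.image (fun x => g • x) ⊆ A}

section Attained

variable {X : Type} [Fintype X] [DecidableEq X] {F : Set (Finset X)}

lemma isGreatest_q (hF : ∅ ∉ F) : IsGreatest (smallSet F) (q F) := by
  classical
  have hcl : IsClosed (smallSet F) := by
    have : smallSet F = ⋃ 𝒢 ∈ {𝒢 : Finset (Finset X) | Covers 𝒢 F},
        {p : ℝ | 0 ≤ p ∧ p ≤ 1 ∧ ∑ S ∈ 𝒢, p ^ S.card ≤ 1 / 2} := by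
      ext p
      simp only [smallSet, Set.mem_ofPred_eq, Set.mem_iUnion, exists_prop]
      constructor
      · rintro ⟨h0, h1, 𝒢, hc, hs⟩
        exact ⟨𝒢, hc, h0, h1, hs⟩
      · rintro ⟨𝒢, hc, h0, h1, hs⟩
        exact ⟨h0, h1, 𝒢, hc, hs⟩
    rw [this]
    refine Set.Finite.isClosed_biUnion (Set.toFinite _) (fun 𝒢 _ => ?_)
    simp only [Set.ofPred_and]
    refine (isClosed_le continuous_const continuous_id).inter
      ((isClosed_le continuous_id continuous_const).inter
        (isClosed_le ?_ continuous_const))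
    fun_prop
  have hcomp : IsCompact (smallSet F) :=
    isCompact_Icc.of_isClosed_subset hcl (fun p hp => ⟨hp.1, hp.2.1⟩)
  refine hcomp.isGreatest_sSup ⟨0, le_rfl, zero_le_one, univ.filter (fun S => S ≠ ∅), ?_, ?_⟩
  · intro H hH
    refine ⟨H, ?_, Finset.Subset.refl _⟩
    simp only [Finset.mem_filter, Finset.mem_univ, true_and]
    rintro rfl
    exact hF hH
  · rw [Finset.sum_eq_zero]
    · norm_num
    · intro S hS
      simp only [Finset.mem_filter, Finset.mem_univ, true_and] at hS
      exact zero_pow (Finset.card_ne_zero.mpr (Finset.nonempty_iff_ne_empty.mpr hS))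

lemma isGreatest_qf (hF : ∅ ∉ F) : IsGreatest (fracSet F) (qf F) := by
  classical
  set D : Set (ℝ × (Finset X → ℝ)) := {x | (0 ≤ x.1 ∧ x.1 ≤ 1) ∧ (∀ S, 0 ≤ x.2 S ∧ x.2 S ≤ 1) ∧
    (∀ H ∈ F, 1 ≤ ∑ S ∈ H.powerset, x.2 S) ∧ ∑ S : Finset X, x.2 S * x.1 ^ S.card ≤ 1 / 2} with hD
  have hDcl : IsClosed D := by
    rw [hD]
    simp only [Set.ofPred_and, Set.ofPred_forall]
    refine IsClosed.inter (IsClosed.inter ?_ ?_) (IsClosed.inter ?_ (IsClosed.inter ?_ ?_))
    · exact isClosed_le continuous_const continuous_fst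
    · exact isClosed_le continuous_fst continuous_const
    · refine isClosed_iInter (fun S => IsClosed.inter ?_ ?_)
      · exact isClosed_le continuous_const (by fun_prop)
      · exact isClosed_le (by fun_prop) continuous_const
    · refine isClosed_iInter (fun H => isClosed_iInter (fun _ => ?_))
      exact isClosed_le continuous_const (by fun_prop)
    · exact isClosed_le (by fun_prop) continuous_const
  have hDsub : D ⊆ Set.Icc (0 : ℝ) 1 ×ˢ Set.Icc (0 : Finset X → ℝ) 1 := by
    rintro ⟨p, g⟩ hx
    exact ⟨⟨hx.1.1, hx.1.2⟩, ⟨fun S => (hx.2.1 S).1, fun S => (hx.2.1 S).2⟩⟩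
  have hDcomp : IsCompact D := (isCompact_Icc.prod isCompact_Icc).of_isClosed_subset hDcl hDsub
  have himg : fracSet F = Prod.fst '' D := by
    ext p
    simp only [fracSet, FracCovers, Set.mem_ofPred_eq, Set.mem_image, Prod.exists, hD,
      exists_and_right, exists_eq_right]
    constructor
    · rintro ⟨h0, h1, g, ⟨hg, hc⟩, hs⟩
      exact ⟨g, ⟨h0, h1⟩, hg, hc, hs⟩
    · rintro ⟨g, ⟨h0, h1⟩, hg, hc, hs⟩
      exact ⟨h0, h1, g, ⟨hg, hc⟩, hs⟩
  have hcomp : IsCompact (fracSet F) := by
    rw [himg]; exact hDcomp.image continuous_fst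
  refine hcomp.isGreatest_sSup ⟨0, le_rfl, zero_le_one, fun S => if S = ∅ then 0 else 1, ?_, ?_⟩
  · refine ⟨fun S => by dsimp only; split_ifs <;> norm_num, fun H hH => ?_⟩
    have hne : H ≠ ∅ := fun h => hF (h ▸ hH)
    have h1 := Finset.single_le_sum (s := H.powerset) (f := fun S : Finset X =>
      if S = ∅ then (0 : ℝ) else 1) (fun S _ => by
        show (0 : ℝ) ≤ if S = ∅ then (0 : ℝ) else 1
        split_ifs <;> norm_num) (Finset.mem_powerset_self H)
    simpa [hne] using h1
  · rw [Finset.sum_eq_zero]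
    · norm_num
    · intro S _
      by_cases hS : S = ∅
      · simp [hS]
      · rw [zero_pow (Finset.card_ne_zero.mpr (Finset.nonempty_iff_ne_empty.mpr hS)), mul_zero]

lemma small_sub_frac : smallSet F ⊆ fracSet F := by
  classical
  rintro p ⟨h0, h1, 𝒢, hc, hs⟩
  refine ⟨h0, h1, fun S => if S ∈ 𝒢 then 1 else 0,
    ⟨fun S => by dsimp only; split_ifs <;> norm_num, fun H hH => ?_⟩, ?_⟩
  · obtain ⟨S, hS, hSH⟩ := hc H hH
    have h2 := Finset.single_le_sum (s := H.powerset) (f := fun S : Finset X =>
      if S ∈ 𝒢 then (1 : ℝ) else 0) (fun S _ => by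
        show (0 : ℝ) ≤ if S ∈ 𝒢 then (1 : ℝ) else 0
        split_ifs <;> norm_num) (Finset.mem_powerset.mpr hSH)
    simpa [hS] using h2
  · refine le_trans (le_of_eq ?_) hs
    simp only [ite_mul, one_mul, zero_mul]
    rw [← Finset.sum_filter]
    refine Finset.sum_congr ?_ (fun _ _ => rfl)
    ext S
    simp

end Attained

/-- **Talagrand's conjecture for families generated by few orbits.** There is a universal
constant `K` such that for every finite group `G` acting on a finite set `X` and all nonempty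
sets `H ∈ 𝓗`, the increasing family `F` generated by all translates `g H` satisfies
`q_f(F) ≤ K * |𝓗| * q(F)`; both maxima are attained and `q(F) ≤ q_f(F)`. In particular
`q_f(F) ≤ K q(F)` if `F` is generated by a single orbit. -/
theorem result :
    ∃ K : ℝ, 0 < K ∧ ∀ (G X : Type) [Group G] [Fintype G] [Fintype X] [DecidableEq X]
      [MulAction G X] (𝓗 : Finset (Finset X)), 𝓗.Nonempty → (∀ H ∈ 𝓗, H.Nonempty) →
        IsGreatest (smallSet (orbitFamily G 𝓗)) (q (orbitFamily G 𝓗)) ∧
        IsGreatest (fracSet (orbitFamily G 𝓗)) (qf (orbitFamily G 𝓗)) ∧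
        q (orbitFamily G 𝓗) ≤ qf (orbitFamily G 𝓗) ∧
        qf (orbitFamily G 𝓗) ≤ K * (𝓗.card : ℝ) * q (orbitFamily G 𝓗) := by
  obtain ⟨L, hL, hA⟩ := Vale.Agent.P064.partA
  refine ⟨max L 1, lt_max_of_lt_left hL, ?_⟩
  intro G X _ _ _ _ _ 𝓗 h𝓗 hne
  classical
  set F := orbitFamily G 𝓗 with hFdef
  have hF0 : ∅ ∉ F := by
    rintro ⟨H, hH, g, hg⟩
    have h1 : H.image (fun x => g • x) = ∅ := Finset.subset_empty.mp hg
    rw [Finset.image_eq_empty] at h1
    exact (hne H hH).ne_empty h1
  have hq := isGreatest_q hF0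
  have hqf := isGreatest_qf hF0
  refine ⟨hq, hqf, hqf.2 (small_sub_frac hq.1), ?_⟩
  have hM1 : (1 : ℝ) ≤ (𝓗.card : ℝ) := by exact_mod_cast h𝓗.card_pos
  have hM0 : (0 : ℝ) < (𝓗.card : ℝ) := by linarith
  have hK1 : (1 : ℝ) ≤ max L 1 := le_max_right _ _
  have hq0 : 0 ≤ q F := hq.1.1
  have hqf1 : qf F ≤ 1 := hqf.1.2.1
  -- the main estimate for every density at which `F` is not small
  have key : ∀ x : ℝ, q F < x → x ≤ 1 → qf F ≤ max L 1 * (𝓗.card : ℝ) * x := by
    intro x hx hx1
    have hx0 : 0 < x := by linarith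
    set y : ℝ := (𝓗.card : ℝ) * x with hy
    have hy0 : 0 < y := by positivity
    rcases le_or_gt y 1 with hy1 | hy1
    swap
    · have : 1 ≤ max L 1 * y := by nlinarith
      calc qf F ≤ 1 := hqf1
        _ ≤ max L 1 * y := this
        _ = max L 1 * (𝓗.card : ℝ) * x := by rw [hy]; ring
    -- some member of `𝓗` has only large orbits of subsets
    have hex : ∃ H ∈ 𝓗, ∀ K : Finset X, K ⊆ H → K.Nonempty →
        (1 : ℝ) / 2 ≤ ((univ.image (fun g : G => K.image (fun x => g • x))).card : ℝ)
          * y ^ K.card := by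
      by_contra hcon
      push Not at hcon
      choose! K hKsub hKne hKlt using hcon
      have hmem : x ∈ smallSet F := by
        refine ⟨hx0.le, hx1, 𝓗.biUnion (fun H => univ.image (fun g : G =>
          (K H).image (fun x => g • x))), ?_, ?_⟩
        · rintro A ⟨H, hH, g, hg⟩
          refine ⟨(K H).image (fun x => g • x), ?_, ?_⟩
          · rw [Finset.mem_biUnion]
            exact ⟨H, hH, Finset.mem_image_of_mem _ (Finset.mem_univ g)⟩
          · exact (Finset.image_subset_image (hKsub H hH)).trans hg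
        · have h1 : ∑ S ∈ 𝓗.biUnion (fun H => univ.image (fun g : G =>
              (K H).image (fun x => g • x))), x ^ S.card
              ≤ ∑ H ∈ 𝓗, ∑ S ∈ univ.image (fun g : G => (K H).image (fun x => g • x)),
                x ^ S.card :=
            Vale.Agent.P034.sum_biUnion_le_of_nonneg _ _ _ (fun S => by positivity)
          refine h1.trans ?_
          have h2 : ∀ H ∈ 𝓗, ∑ S ∈ univ.image (fun g : G => (K H).image (fun x => g • x)),
              x ^ S.card ≤ (1 / 2) / (𝓗.card : ℝ) := by
            intro H hH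
            have h3 : ∑ S ∈ univ.image (fun g : G => (K H).image (fun x => g • x)), x ^ S.card
                = ((univ.image (fun g : G => (K H).image (fun x => g • x))).card : ℝ)
                  * x ^ (K H).card := by
              rw [← nsmul_eq_mul, ← Finset.sum_const]
              refine Finset.sum_congr rfl (fun S hS => ?_)
              obtain ⟨g, _, rfl⟩ := Finset.mem_image.mp hS
              rw [Finset.card_image_of_injective _ (MulAction.injective g)]
            rw [h3, le_div_iff₀ hM0]
            have h4 : (𝓗.card : ℝ) ≤ (𝓗.card : ℝ) ^ (K H).card :=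
              le_self_pow₀ hM1 (hKne H hH).card_pos.ne'
            have h5 := hKlt H hH
            have h6 : ((univ.image (fun g : G => (K H).image (fun x => g • x))).card : ℝ)
                  * x ^ (K H).card * (𝓗.card : ℝ)
                ≤ ((univ.image (fun g : G => (K H).image (fun x => g • x))).card : ℝ)
                  * x ^ (K H).card * (𝓗.card : ℝ) ^ (K H).card :=
              mul_le_mul_of_nonneg_left h4 (by positivity)
            have h7 : ((univ.image (fun g : G => (K H).image (fun x => g • x))).card : ℝ)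
                  * x ^ (K H).card * (𝓗.card : ℝ) ^ (K H).card
                = ((univ.image (fun g : G => (K H).image (fun x => g • x))).card : ℝ)
                  * y ^ (K H).card := by
              rw [hy, mul_pow]; ring
            linarith
          refine (Finset.sum_le_sum h2).trans (le_of_eq ?_)
          rw [Finset.sum_const, nsmul_eq_mul]
          field_simp
      exact absurd (hq.2 hmem) (not_le.mpr hx)
    obtain ⟨H, hH, hHorb⟩ := hex
    have hFc := hA G X H y hy0 hy1 hHorb
    obtain ⟨f, ⟨hf01, hfc⟩, hfs⟩ := hqf.1.2.2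
    have h1 := Vale.Agent.P034.frac_cost (G := G) (K0 := H) (κ := L * y) (by positivity) hFc
      (f := f) (fun S => (hf01 S).1) (fun g => hfc _ ⟨H, hH, g, Finset.Subset.refl _⟩)
    -- hence `qf F < L y`
    have h2 : qf F < L * y := by
      by_contra hcon
      push Not at hcon
      have h3 : ∑ S : Finset X, f S * (L * y) ^ S.card ≤ ∑ S : Finset X, f S * qf F ^ S.card :=
        Finset.sum_le_sum (fun S _ => mul_le_mul_of_nonneg_left
          (pow_le_pow_left₀ (by positivity) hcon _) (hf01 S).1)
      linarith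
    calc qf F ≤ L * y := h2.le
      _ ≤ max L 1 * y := mul_le_mul_of_nonneg_right (le_max_left _ _) hy0.le
      _ = max L 1 * (𝓗.card : ℝ) * x := by rw [hy]; ring
  have hKM : 0 < max L 1 * (𝓗.card : ℝ) := by positivity
  rcases lt_or_eq_of_le hq.1.2.1 with hlt | heq
  · -- let `x` decrease to `q F`
    refine le_of_forall_pos_le_add (fun ε hε => ?_)
    set δ := min (ε / (max L 1 * (𝓗.card : ℝ))) (1 - q F) with hδ
    have hδ0 : 0 < δ := lt_min (by positivity) (by linarith)
    have h1 := key (q F + δ) (by linarith) (by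
      have := min_le_right (ε / (max L 1 * (𝓗.card : ℝ))) (1 - q F)
      linarith)
    have h2 : max L 1 * (𝓗.card : ℝ) * δ ≤ ε := by
      have h3 := min_le_left (ε / (max L 1 * (𝓗.card : ℝ))) (1 - q F)
      calc max L 1 * (𝓗.card : ℝ) * δ
          ≤ max L 1 * (𝓗.card : ℝ) * (ε / (max L 1 * (𝓗.card : ℝ))) :=
            mul_le_mul_of_nonneg_left h3 hKM.le
        _ = ε := by field_simp
    calc qf F ≤ max L 1 * (𝓗.card : ℝ) * (q F + δ) := h1
      _ = max L 1 * (𝓗.card : ℝ) * q F + max L 1 * (𝓗.card : ℝ) * δ := by ring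
      _ ≤ _ := by linarith
  · rw [heq, mul_one]
    nlinarith

end Vale.Agent.Results.P034.OrbitFamilies
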