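import Vale.Agent.Tal.PartK

/-!
# Talagrand's conjecture on fractional versus integral expectation thresholds (P034)

There is a universal constant `K` such that `q_f(F) ≤ K * q(F)` for every finite nonempty set
`X` and every nonempty proper increasing family `F ⊆ 2^X`.
-/

namespace Vale.Agent.Results.P034.Talagrand

open Finset

/-- `𝒢` covers `F`: every member of `F` contains a member of `𝒢`. -/
def Covers {X : Type} (𝒢 : Finset (Finset X)) (F : Set (Finset X)) : Prop :=
  ∀ H ∈ F, ∃ S ∈ 𝒢, S ⊆ H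

/-- `g` is a fractional cover of `F`. -/
def FracCovers {X : Type} (g : Finset X → ℝ) (F : Set (Finset X)) : Prop :=
  (∀ S, 0 ≤ g S ∧ g S ≤ 1) ∧ ∀ H ∈ F, 1 ≤ ∑ S ∈ H.powerset, g S

/-- the set of all `p` in `[0,1]` such that `F` is `p`-small -/
def smallSet {X : Type} (F : Set (Finset X)) : Set ℝ :=
  {p : ℝ | 0 ≤ p ∧ p ≤ 1 ∧ ∃ 𝒢 : Finset (Finset X), Covers 𝒢 F ∧ ∑ S ∈ 𝒢, p ^ S.card ≤ 1 / 2}

/-- the set of all `p` in `[0,1]` at which `F` has a fractional cover of cost at most `1/2` -/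
def fracSet {X : Type} [Fintype X] (F : Set (Finset X)) : Set ℝ :=
  {p : ℝ | 0 ≤ p ∧ p ≤ 1 ∧
    ∃ g : Finset X → ℝ, FracCovers g F ∧ ∑ S : Finset X, g S * p ^ S.card ≤ 1 / 2}

/-- the expectation threshold `q(F)` -/
noncomputable def q {X : Type} (F : Set (Finset X)) : ℝ := sSup (smallSet F)

/-- the fractional expectation threshold `q_f(F)` -/
noncomputable def qf {X : Type} [Fintype X] (F : Set (Finset X)) : ℝ := sSup (fracSet F)

section Attained

variable {X : Type} [Fintype X] [DecidableEq X] {F : Set (Finset X)}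

lemma isGreatest_q (hF : ∅ ∉ F) : IsGreatest (smallSet F) (q F) := by
  classical
  have hcl : IsClosed (smallSet F) := by
    have : smallSet F = ⋃ 𝒢 ∈ {𝒢 : Finset (Finset X) | Covers 𝒢 F},
        {p : ℝ | 0 ≤ p ∧ p ≤ 1 ∧ ∑ S ∈ 𝒢, p ^ S.card ≤ 1 / 2} := by
      ext p
      simp only [smallSet, Set.mem_ofPred_eq, Set.mem_iUnion, exists_prop]
      constructor
      · rintro ⟨h0, h1, 𝒢, hc, hs⟩
        exact ⟨𝒢, hc, h0, h1, hs⟩
      · rintro ⟨𝒢, hc, h0, h1, hs⟩
        exact ⟨h0, h1, 𝒢, hc, hs⟩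
    rw [this]
    refine Set.Finite.isClosed_biUnion (Set.toFinite _) (fun 𝒢 _ => ?_)
    simp only [Set.ofPred_and]
    refine (isClosed_le continuous_const continuous_id).inter
      ((isClosed_le continuous_id continuous_const).inter
        (isClosed_le ?_ continuous_const))
    fun_prop
  have hcomp : IsCompact (smallSet F) :=
    isCompact_Icc.of_isClosed_subset hcl (fun p hp => ⟨hp.1, hp.2.1⟩)
  refine hcomp.isGreatest_sSup ⟨0, le_rfl, zero_le_one, univ.filter (fun S => S ≠ ∅), ?_, ?_⟩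
  · intro H hH
    refine ⟨H, ?_, Finset.Subset.refl _⟩
    simp only [Finset.mem_filter, Finset.mem_univ, true_and]
    rintro rfl
    exact hF hH
  · rw [Finset.sum_eq_zero]
    · norm_num
    · intro S hS
      simp only [Finset.mem_filter, Finset.mem_univ, true_and] at hS
      exact zero_pow (Finset.card_ne_zero.mpr (Finset.nonempty_iff_ne_empty.mpr hS))

lemma isGreatest_qf (hF : ∅ ∉ F) : IsGreatest (fracSet F) (qf F) := by
  classical
  set D : Set (ℝ × (Finset X → ℝ)) := {x | (0 ≤ x.1 ∧ x.1 ≤ 1) ∧ (∀ S, 0 ≤ x.2 S ∧ x.2 S ≤ 1) ∧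
    (∀ H ∈ F, 1 ≤ ∑ S ∈ H.powerset, x.2 S) ∧ ∑ S : Finset X, x.2 S * x.1 ^ S.card ≤ 1 / 2} with hD
  have hDcl : IsClosed D := by
    rw [hD]
    simp only [Set.ofPred_and, Set.ofPred_forall]
    refine IsClosed.inter (IsClosed.inter ?_ ?_) (IsClosed.inter ?_ (IsClosed.inter ?_ ?_))
    · exact isClosed_le continuous_const continuous_fst
    · exact isClosed_le continuous_fst continuous_const
    · refine isClosed_iInter (fun S => IsClosed.inter ?_ ?_)
      · exact isClosed_le continuous_const (by fun_prop)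
      · exact isClosed_le (by fun_prop) continuous_const
    · refine isClosed_iInter (fun H => isClosed_iInter (fun _ => ?_))
      exact isClosed_le continuous_const (by fun_prop)
    · exact isClosed_le (by fun_prop) continuous_const
  have hDsub : D ⊆ Set.Icc (0 : ℝ) 1 ×ˢ Set.Icc (0 : Finset X → ℝ) 1 := by
    rintro ⟨p, g⟩ hx
    exact ⟨⟨hx.1.1, hx.1.2⟩, ⟨fun S => (hx.2.1 S).1, fun S => (hx.2.1 S).2⟩⟩
  have hDcomp : IsCompact D := (isCompact_Icc.prod isCompact_Icc).of_isClosed_subset hDcl hDsub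
  have himg : fracSet F = Prod.fst '' D := by
    ext p
    simp only [fracSet, FracCovers, Set.mem_ofPred_eq, Set.mem_image, Prod.exists, hD,
      exists_and_right, exists_eq_right]
    constructor
    · rintro ⟨h0, h1, g, ⟨hg, hc⟩, hs⟩
      exact ⟨g, ⟨h0, h1⟩, hg, hc, hs⟩
    · rintro ⟨g, ⟨h0, h1⟩, hg, hc, hs⟩
      exact ⟨h0, h1, g, ⟨hg, hc⟩, hs⟩
  have hcomp : IsCompact (fracSet F) := by
    rw [himg]; exact hDcomp.image continuous_fst
  refine hcomp.isGreatest_sSup ⟨0, le_rfl, zero_le_one, fun S => if S = ∅ then 0 else 1, ?_, ?_⟩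
  · refine ⟨fun S => by dsimp only; split_ifs <;> norm_num, fun H hH => ?_⟩
    have hne : H ≠ ∅ := fun h => hF (h ▸ hH)
    have h1 := Finset.single_le_sum (s := H.powerset) (f := fun S : Finset X =>
      if S = ∅ then (0 : ℝ) else 1) (fun S _ => by
        show (0 : ℝ) ≤ if S = ∅ then (0 : ℝ) else 1
        split_ifs <;> norm_num) (Finset.mem_powerset_self H)
    simpa [hne] using h1
  · rw [Finset.sum_eq_zero]
    · norm_num
    · intro S _
      by_cases hS : S = ∅
      · simp [hS]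
      · rw [zero_pow (Finset.card_ne_zero.mpr (Finset.nonempty_iff_ne_empty.mpr hS)), mul_zero]

lemma small_sub_frac : smallSet F ⊆ fracSet F := by
  classical
  rintro p ⟨h0, h1, 𝒢, hc, hs⟩
  refine ⟨h0, h1, fun S => if S ∈ 𝒢 then 1 else 0,
    ⟨fun S => by dsimp only; split_ifs <;> norm_num, fun H hH => ?_⟩, ?_⟩
  · obtain ⟨S, hS, hSH⟩ := hc H hH
    have h2 := Finset.single_le_sum (s := H.powerset) (f := fun S : Finset X =>
      if S ∈ 𝒢 then (1 : ℝ) else 0) (fun S _ => by
        show (0 : ℝ) ≤ if S ∈ 𝒢 then (1 : ℝ) else 0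
        split_ifs <;> norm_num) (Finset.mem_powerset.mpr hSH)
    simpa [hS] using h2
  · refine le_trans (le_of_eq ?_) hs
    simp only [ite_mul, one_mul, zero_mul]
    rw [← Finset.sum_filter]
    refine Finset.sum_congr ?_ (fun _ _ => rfl)
    ext S
    simp

end Attained

/-- **Talagrand's conjecture (2010).** There is a universal constant `K` such that for every
finite nonempty set `X` and every nonempty increasing family `F` of subsets of `X` with
`∅ ∉ F`, the integral and the fractional expectation thresholds satisfy `q_f(F) ≤ K * q(F)`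
(both maxima are attained and `q(F) ≤ q_f(F)`). -/
theorem result :
    ∃ K : ℝ, 0 < K ∧ ∀ (X : Type) [Fintype X] [Nonempty X] (F : Set (Finset X)),
      F.Nonempty → ∅ ∉ F → (∀ A B : Finset X, A ∈ F → A ⊆ B → B ∈ F) →
        IsGreatest (smallSet F) (q F) ∧ IsGreatest (fracSet F) (qf F) ∧
        q F ≤ qf F ∧ qf F ≤ K * q F := by
  refine ⟨24 * Real.exp 8060, by positivity, ?_⟩
  intro X _ _ F _ hF0 _
  classical
  have hK : (0 : ℝ) < 24 * Real.exp 8060 := by positivity
  have hK1 : (1 : ℝ) ≤ 24 * Real.exp 8060 := by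
    have := Real.one_le_exp (show (0:ℝ) ≤ 8060 by norm_num)
    linarith
  have hq := isGreatest_q hF0
  have hqf := isGreatest_qf hF0
  refine ⟨hq, hqf, hqf.2 (small_sub_frac hq.1), ?_⟩
  rcases lt_or_ge 0 (qf F) with hpos | hneg
  · obtain ⟨g, ⟨hg01, hgc⟩, hgs⟩ := hqf.1.2.2
    obtain ⟨𝒢, hcov, hcost⟩ := Vale.Agent.Tal.small_of_frac F hpos hqf.1.2.1 g
      (fun S => (hg01 S).1) hgc hgs
    have hmem : qf F / (24 * Real.exp 8060) ∈ smallSet F :=
      ⟨by positivity, by
        rw [div_le_one hK]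
        exact hqf.1.2.1.trans hK1, 𝒢, hcov, hcost⟩
    have h := hq.2 hmem
    rw [div_le_iff₀ hK] at h
    linarith
  · have h0 : 0 ≤ q F := hq.1.1
    have : 0 ≤ 24 * Real.exp 8060 * q F := by positivity
    linarith

end Vale.Agent.Results.P034.Talagrand
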